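import Vale.Agent.P315.Q976.ValueW
import Vale.Agent.P315.H330.Atoms

/-!
ONE PASS (note of helper337): the accounting after a static cut `β0`. The cut is a shift of the
static coordinate, so everything follows from `Q976.Ker.account` for the shifted curves. No promise,
no visible slack, no bound that uses only monotonicity. Also the expectation of `(S - β0)^+` for
the sum `S` of the jitters on a lineage.
-/

set_option autoImplicit false

namespace Vale.Agent.P315.H866

open Finset Vale.Agent.P315.Q976.Ker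

/-- The curves after the cut. -/
def cut (c : ℕ → ℕ → ℕ → ℝ) (β0 : ℕ) : ℕ → ℕ → ℕ → ℝ := fun j t β => c j t (β0 + β)

section Path

variable {M n : ℕ} {W : ℕ → ℕ → ℝ} {p : ℕ → ℕ → ℕ → ℝ}

lemma nu_cut (c : ℕ → ℕ → ℕ → ℝ) (β0 j t β : ℕ) :
    nu (cut c β0) j t β = nu c j t (β0 + β) := by
  unfold nu cut
  rw [Nat.add_assoc]

lemma gain_cut (c : ℕ → ℕ → ℕ → ℝ) (β0 j t β : ℕ) :
    gain M p (cut c β0) j t β = gain M p c j t (β0 + β) := rfl

/-- Counting the indices at which a leaf is not yet read. -/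
lemma sum_late (β0 B S : ℕ) :
    ∑ β ∈ range B, (if β0 + β < S then (1 : ℝ) else 0) ≤ ((S - β0 : ℕ) : ℝ) := by
  rw [Finset.sum_ite, Finset.sum_const_zero, add_zero, Finset.sum_const, nsmul_eq_mul, mul_one]
  have h1 : ((range B).filter (fun β => β0 + β < S)) ⊆ range (S - β0) := fun β hβ => by
    simp only [Finset.mem_filter, Finset.mem_range] at hβ ⊢
    omega
  have h := Finset.card_le_card h1
  rw [Finset.card_range] at h
  exact_mod_cast h

/-- **The gains after the cut** are paid by the leaves which are not yet read at the cut. -/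
theorem Gam_cut_le (h : IsKer M n W p) {c : ℕ → ℕ → ℕ → ℝ} {D : ℕ → ℝ} {S : ℕ → ℕ} {η : ℝ}
    {β0 : ℕ}
    (hleaf : ∀ r < M ^ n, ∀ β, β0 ≤ β → c 0 r β ≤ D r + η + if β < S r then 1 else 0)
    (hlow : ∀ β, β0 ≤ β → av M n W 0 D ≤ c n 0 β) (B : ℕ) :
    Gam M n W p (cut c β0) B ≤ av M n W 0 (fun r => ((S r - β0 : ℕ) : ℝ)) + B * η := by
  have h1 : ∀ β, ∑ j ∈ range n, av M n W (j + 1) (fun t => gain M p (cut c β0) j t β) ≤
      av M n W 0 (fun r => if β0 + β < S r then (1 : ℝ) else 0) + η := by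
    intro β
    have h0 := av_telescope h (cut c β0) β (le_refl n)
    rw [av_top h] at h0
    have h2 : av M n W 0 (fun t => cut c β0 0 t β) ≤
        av M n W 0 D + η + av M n W 0 (fun r => if β0 + β < S r then (1 : ℝ) else 0) := by
      have e := av_const h (Nat.zero_le n) η
      calc av M n W 0 (fun t => cut c β0 0 t β)
          ≤ av M n W 0 (fun r => D r + η + if β0 + β < S r then (1 : ℝ) else 0) :=
            av_mono h (Nat.zero_le _) fun t ht => hleaf t (by simpa using ht) _ (by omega)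
        _ = _ := by
            rw [av_add (fun r => D r + η), av_add D (fun _ => η), e]
    have h3 := hlow (β0 + β) (by omega)
    have h4 : cut c β0 n 0 β = c n 0 (β0 + β) := rfl
    linarith
  have e2 : ∑ β ∈ range B, ∑ j ∈ range n, av M n W (j + 1)
      (fun t => gain M p (cut c β0) j t β) = Gam M n W p (cut c β0) B := by
    unfold Gam
    rw [Finset.sum_comm]
    exact Finset.sum_congr rfl fun j _ => (av_sum _ _).symm
  rw [← e2]
  refine (Finset.sum_le_sum fun β _ => h1 β).trans ?_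
  rw [Finset.sum_add_distrib, Finset.sum_const, Finset.card_range, nsmul_eq_mul, ← av_sum]
  have := av_mono (M := M) (n := n) h (Nat.zero_le n)
    (f := fun r => ∑ β ∈ range B, (if β0 + β < S r then (1 : ℝ) else 0))
    (g := fun r => ((S r - β0 : ℕ) : ℝ)) fun t _ => sum_late β0 B (S t)
  linarith

/-- **ONE PASS, one-scale, pathwise, arbitrary kernel.** The certified cost of the root at the
static cut `β0` exceeds the hidden cost by at most four times the average number of indices by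
which the leaves are late, plus errors, divided by the number of levels. -/
theorem one_pass (h : IsKer M n W p) {c : ℕ → ℕ → ℕ → ℝ} {cap : ℝ} (hcap : 0 ≤ cap)
    {D : ℕ → ℝ} {S : ℕ → ℕ} {η : ℝ} {β0 B : ℕ}
    (hgain : ∀ j < n, ∀ t < M ^ (n - (j + 1)), ∀ β, β0 ≤ β → 0 ≤ gain M p c j t β)
    (hnu : ∀ j < n, ∀ t < M ^ (n - j), ∀ β, β0 ≤ β → 0 ≤ nu c j t β)
    (hdrop : ∀ t < M ^ n, c 0 t β0 - c 0 t (β0 + B) ≤ 1)
    (hleaf : ∀ r < M ^ n, ∀ β, β0 ≤ β → c 0 r β ≤ D r + η + if β < S r then 1 else 0)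
    (hlow : ∀ β, β0 ≤ β → av M n W 0 D ≤ c n 0 β) (hS : ∀ r < M ^ n, S r ≤ β0 + B)
    {err atm : ℕ → ℕ → ℝ}
    (hstar : ∀ j < n, ∀ t < M ^ (n - (j + 1)),
      ∑ β ∈ range B, ch M p j (fun s => min (nu c j s (β0 + β)) cap) t ≤
        2 * ∑ β ∈ range (B + 1), gain M p c j t (β0 + β) + err j t)
    (hatm : ∀ j, j + 1 < n → ∀ t < M ^ (n - (j + 1)),
      ∑ β ∈ range B, (if cap / 2 ≤ ch M p j (fun s => nu c j s (β0 + β)) t
        then ch M p j (fun s => nu c j s (β0 + β)) t else 0) ≤ atm j t) :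
    n * (c n 0 β0 - av M n W 0 D - η) ≤
      4 * (av M n W 0 (fun r => ((S r - β0 : ℕ) : ℝ)) + (B + 1) * η)
        + ∑ j ∈ range n, av M n W (j + 1) (err j)
        + 2 * ∑ j ∈ range (n - 1), av M n W (j + 1) (atm j) + 1 := by
  have hacc := account (M := M) (n := n) h (c := cut c β0) hcap (B := B)
    (fun j hj t ht β => by rw [gain_cut]; exact hgain j hj t ht _ (by omega))
    (fun j hj t ht β => by rw [nu_cut]; exact hnu j hj t ht _ (by omega))
    (fun t ht => by simpa [cut] using hdrop t ht)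
    (err := err) (atm := atm)
    (fun j hj t ht => by simpa only [nu_cut, gain_cut] using hstar j hj t ht)
    (fun j hj t ht => by simpa only [nu_cut] using hatm j hj t ht)
  have hG := Gam_cut_le (M := M) (n := n) h hleaf hlow (B + 1)
  have hend : av M n W 0 (fun t => cut c β0 0 t B) ≤ av M n W 0 D + η := by
    have e := av_const h (Nat.zero_le n) η
    calc av M n W 0 (fun t => cut c β0 0 t B) ≤ av M n W 0 (fun r => D r + η) :=
          av_mono h (Nat.zero_le _) fun t ht => by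
            have ht' : t < M ^ n := by simpa using ht
            have h1 := hleaf t ht' (β0 + B) (by omega)
            rw [if_neg (by have := hS t ht'; omega), add_zero] at h1
            exact h1
      _ = _ := by rw [av_add D (fun _ => η), e]
  have h0 : cut c β0 n 0 0 = c n 0 β0 := rfl
  rw [h0] at hacc
  have hn : (0 : ℝ) ≤ n := Nat.cast_nonneg n
  have h5 : (n : ℝ) * (c n 0 β0 - av M n W 0 D - η) ≤
      n * (c n 0 β0 - av M n W 0 (fun t => cut c β0 0 t B)) :=
    mul_le_mul_of_nonneg_left (by linarith) hn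
  push_cast at hG
  linarith

/-- The uniform kernel. -/
lemma isKer_unif (hM : 0 < M) (n : ℕ) :
    IsKer M n (fun j _ => ((M : ℝ) ^ (n - j))⁻¹) (fun _ _ _ => (M : ℝ)⁻¹) where
  top := by simp
  step := fun j hj t _ i _ => by
    have h1 : n - j = (n - (j + 1)) + 1 := by omega
    rw [h1, pow_succ, mul_inv]
  p0 := fun _ _ _ _ _ _ => by positivity
  p1 := fun _ _ _ _ => by
    have : (M : ℝ) ≠ 0 := by positivity
    rw [Finset.sum_const, Finset.card_range, nsmul_eq_mul]
    field_simp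

end Path

/-! ### The expectation of the lateness of a leaf -/

section Late

open Vale.Agent.P315.H330 (av_coord av_sq_sum)

/-- mean of the uniform law on `{0,…,J}` -/
lemma av_fin (J : ℕ) : H330.av (fun x : Fin (J + 1) => ((x : ℕ) : ℝ)) = J / 2 := by
  unfold H330.av
  rw [Fin.sum_univ_eq_sum_range (fun i => (i : ℝ)) (J + 1), Fintype.card_fin]
  have h : ∀ m : ℕ, ∑ i ∈ range (m + 1), (i : ℝ) = m * (m + 1) / 2 := by
    intro m
    induction m with
    | zero => simp
    | succ m ih => rw [Finset.sum_range_succ, ih]; push_cast; ring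
  rw [h]
  have : ((J : ℝ) + 1) ≠ 0 := by positivity
  push_cast
  field_simp

/-- centred square of the uniform law -/
lemma av_fin_sq (J : ℕ) :
    H330.av (fun x : Fin (J + 1) => (((x : ℕ) : ℝ) - J / 2) ^ 2) ≤ (J / 2 : ℝ) ^ 2 := by
  rw [← H330.av_const (A := Fin (J + 1)) ((J / 2 : ℝ) ^ 2)]
  refine H330.av_mono fun x => ?_
  have hx : ((x : ℕ) : ℝ) ≤ J := by exact_mod_cast Nat.lt_succ_iff.1 x.2
  have hx0 : (0 : ℝ) ≤ ((x : ℕ) : ℝ) := Nat.cast_nonneg _
  exact sq_le_sq' (by linarith) (by linarith)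

/-- **Lateness.** `Σ` = the sum of `m` independent jitters, uniform on `{0,…,J}`. For a cut
`β0 ≤ m J / 2` and every `δ > 0`: `E (Σ - β0)^+ ≤ (m J/2 - β0) + δ m J^2 / 8 + 1 / (2 δ)`. -/
theorem late {I : Type*} [Fintype I] [DecidableEq I] (J : ℕ) (β0 : ℕ)
    (hβ : (β0 : ℝ) ≤ Fintype.card I * (J / 2)) {δ : ℝ} (hδ : 0 < δ) :
    H330.av (fun ω : I → Fin (J + 1) => (((∑ i, (ω i : ℕ)) - β0 : ℕ) : ℝ)) ≤
      (Fintype.card I * (J / 2) - β0) + (δ * (Fintype.card I * (J / 2) ^ 2) / 2 + 1 / (2 * δ)) := by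
  set μ : ℝ := Fintype.card I * (J / 2) with hμ
  -- pointwise
  have hpt : ∀ ω : I → Fin (J + 1), (((∑ i, (ω i : ℕ)) - β0 : ℕ) : ℝ) ≤
      (μ - β0) + (δ * (∑ i, (((ω i : ℕ) : ℝ) - J / 2)) ^ 2 / 2 + 1 / (2 * δ)) := by
    intro ω
    have e1 : ∑ i, (((ω i : ℕ) : ℝ) - J / 2) = ((∑ i, (ω i : ℕ) : ℕ) : ℝ) - μ := by
      rw [Finset.sum_sub_distrib, Finset.sum_const, Finset.card_univ, nsmul_eq_mul]
      push_cast
      rfl
    rw [e1]
    set s : ℝ := ((∑ i, (ω i : ℕ) : ℕ) : ℝ) with hs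
    have h2 : ∀ y : ℝ, y ≤ δ * y ^ 2 / 2 + 1 / (2 * δ) := by
      intro y
      have : δ * y ^ 2 / 2 + 1 / (2 * δ) - y = (δ * y - 1) ^ 2 / (2 * δ) := by
        field_simp
        ring
      have h3 : 0 ≤ (δ * y - 1) ^ 2 / (2 * δ) := by positivity
      linarith
    have h4 := h2 (s - μ)
    have h5 : 0 ≤ δ * (s - μ) ^ 2 / 2 + 1 / (2 * δ) := by positivity
    rcases Nat.le_total (∑ i, (ω i : ℕ)) β0 with hle | hle
    · rw [Nat.sub_eq_zero_of_le hle]
      push_cast
      linarith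
    · rw [Nat.cast_sub hle]
      rw [← hs]
      linarith
  refine (H330.av_mono hpt).trans ?_
  have hsq := av_sq_sum (I := I) (K := Fin (J + 1))
    (fun _ x => ((x : ℕ) : ℝ) - J / 2) (fun i => by
      have := av_fin J
      rw [H330.av_sub, this, H330.av_const]; ring)
  have hE : H330.av (fun ω : I → Fin (J + 1) => (∑ i, (((ω i : ℕ) : ℝ) - J / 2)) ^ 2) ≤
      Fintype.card I * (J / 2 : ℝ) ^ 2 := by
    rw [hsq]
    refine (Finset.sum_le_sum fun i _ => av_fin_sq J).trans ?_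
    rw [Finset.sum_const, Finset.card_univ, nsmul_eq_mul]
  have e3 : H330.av (fun ω : I → Fin (J + 1) =>
      (μ - β0) + (δ * (∑ i, (((ω i : ℕ) : ℝ) - J / 2)) ^ 2 / 2 + 1 / (2 * δ))) =
      (μ - β0) + (δ / 2 * H330.av (fun ω : I → Fin (J + 1) =>
        (∑ i, (((ω i : ℕ) : ℝ) - J / 2)) ^ 2) + 1 / (2 * δ)) := by
    rw [H330.av_add (fun _ => (μ - β0)), H330.av_const]
    congr 1
    rw [H330.av_add (fun ω : I → Fin (J + 1) =>
      δ * (∑ i, (((ω i : ℕ) : ℝ) - J / 2)) ^ 2 / 2) (fun _ => 1 / (2 * δ)), H330.av_const]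
    congr 1
    rw [← H330.av_mul]
    congr 1
    funext ω
    ring
  rw [e3]
  have h6 : δ / 2 * H330.av (fun ω : I → Fin (J + 1) =>
      (∑ i, (((ω i : ℕ) : ℝ) - J / 2)) ^ 2) ≤ δ / 2 * (Fintype.card I * (J / 2 : ℝ) ^ 2) :=
    mul_le_mul_of_nonneg_left hE (by positivity)
  linarith

end Late

end Vale.Agent.P315.H866
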